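import Crest.Agent.R35.G
set_option autoImplicit false
namespace Crest.Agent.R35
theorem c1_0 : d1_0.all (check G) = true := by decide +kernel
theorem c1_1 : d1_1.all (check G) = true := by decide +kernel
theorem c1_2 : d1_2.all (check G) = true := by decide +kernel
theorem c1_3 : d1_3.all (check G) = true := by decide +kernel
theorem c1_4 : d1_4.all (check G) = true := by decide +kernel
theorem c1_5 : d1_5.all (check G) = true := by decide +kernel
theorem c1_6 : d1_6.all (check G) = true := by decide +kernel
theorem c1_7 : d1_7.all (check G) = true := by decide +kernel
theorem c1_8 : d1_8.all (check G) = true := by decide +kernel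
theorem c1_9 : d1_9.all (check G) = true := by decide +kernel
theorem c1_10 : d1_10.all (check G) = true := by decide +kernel
theorem c1_11 : d1_11.all (check G) = true := by decide +kernel
theorem c1_12 : d1_12.all (check G) = true := by decide +kernel
theorem c1_13 : d1_13.all (check G) = true := by decide +kernel
theorem c1_14 : d1_14.all (check G) = true := by decide +kernel
theorem c1_15 : d1_15.all (check G) = true := by decide +kernel
theorem c1_16 : d1_16.all (check G) = true := by decide +kernel
theorem c1_17 : d1_17.all (check G) = true := by decide +kernel
theorem c1_18 : d1_18.all (check G) = true := by decide +kernel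
theorem c1_19 : d1_19.all (check G) = true := by decide +kernel
theorem c1_20 : d1_20.all (check G) = true := by decide +kernel
theorem c1_21 : d1_21.all (check G) = true := by decide +kernel
theorem c1_22 : d1_22.all (check G) = true := by decide +kernel
theorem c1_23 : d1_23.all (check G) = true := by decide +kernel
theorem c1_24 : d1_24.all (check G) = true := by decide +kernel
theorem c1_25 : d1_25.all (check G) = true := by decide +kernel
theorem c1_26 : d1_26.all (check G) = true := by decide +kernel
theorem c1_27 : d1_27.all (check G) = true := by decide +kernel
theorem c1_28 : d1_28.all (check G) = true := by decide +kernel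
theorem c1_29 : d1_29.all (check G) = true := by decide +kernel
theorem c1_30 : d1_30.all (check G) = true := by decide +kernel
theorem c1_31 : d1_31.all (check G) = true := by decide +kernel
theorem c1 : d1.all (check G) = true :=
 (T.all_node (T.all_node (T.all_node (T.all_node (T.all_node c1_0 c1_1) (T.all_node c1_2 c1_3)) (T.all_node (T.all_node c1_4 c1_5) (T.all_node c1_6 c1_7))) (T.all_node (T.all_node (T.all_node c1_8 c1_9) (T.all_node c1_10 c1_11)) (T.all_node (T.all_node c1_12 c1_13) (T.all_node c1_14 c1_15)))) (T.all_node (T.all_node (T.all_node (T.all_node c1_16 c1_17) (T.all_node c1_18 c1_19)) (T.all_node (T.all_node c1_20 c1_21) (T.all_node c1_22 c1_23))) (T.all_node (T.all_node (T.all_node c1_24 c1_25) (T.all_node c1_26 c1_27)) (T.all_node (T.all_node c1_28 c1_29) (T.all_node c1_30 c1_31)))))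
end Crest.Agent.R35
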