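import Crest.Agent.R35.G
set_option autoImplicit false
namespace Crest.Agent.R35
theorem c2_0 : d2_0.all (check G) = true := by decide +kernel
theorem c2_1 : d2_1.all (check G) = true := by decide +kernel
theorem c2_2 : d2_2.all (check G) = true := by decide +kernel
theorem c2_3 : d2_3.all (check G) = true := by decide +kernel
theorem c2_4 : d2_4.all (check G) = true := by decide +kernel
theorem c2_5 : d2_5.all (check G) = true := by decide +kernel
theorem c2_6 : d2_6.all (check G) = true := by decide +kernel
theorem c2_7 : d2_7.all (check G) = true := by decide +kernel
theorem c2_8 : d2_8.all (check G) = true := by decide +kernel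
theorem c2_9 : d2_9.all (check G) = true := by decide +kernel
theorem c2_10 : d2_10.all (check G) = true := by decide +kernel
theorem c2_11 : d2_11.all (check G) = true := by decide +kernel
theorem c2_12 : d2_12.all (check G) = true := by decide +kernel
theorem c2_13 : d2_13.all (check G) = true := by decide +kernel
theorem c2_14 : d2_14.all (check G) = true := by decide +kernel
theorem c2_15 : d2_15.all (check G) = true := by decide +kernel
theorem c2_16 : d2_16.all (check G) = true := by decide +kernel
theorem c2_17 : d2_17.all (check G) = true := by decide +kernel
theorem c2_18 : d2_18.all (check G) = true := by decide +kernel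
theorem c2_19 : d2_19.all (check G) = true := by decide +kernel
theorem c2_20 : d2_20.all (check G) = true := by decide +kernel
theorem c2_21 : d2_21.all (check G) = true := by decide +kernel
theorem c2_22 : d2_22.all (check G) = true := by decide +kernel
theorem c2_23 : d2_23.all (check G) = true := by decide +kernel
theorem c2_24 : d2_24.all (check G) = true := by decide +kernel
theorem c2_25 : d2_25.all (check G) = true := by decide +kernel
theorem c2_26 : d2_26.all (check G) = true := by decide +kernel
theorem c2_27 : d2_27.all (check G) = true := by decide +kernel
theorem c2_28 : d2_28.all (check G) = true := by decide +kernel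
theorem c2_29 : d2_29.all (check G) = true := by decide +kernel
theorem c2_30 : d2_30.all (check G) = true := by decide +kernel
theorem c2_31 : d2_31.all (check G) = true := by decide +kernel
theorem c2 : d2.all (check G) = true :=
 (T.all_node (T.all_node (T.all_node (T.all_node (T.all_node c2_0 c2_1) (T.all_node c2_2 c2_3)) (T.all_node (T.all_node c2_4 c2_5) (T.all_node c2_6 c2_7))) (T.all_node (T.all_node (T.all_node c2_8 c2_9) (T.all_node c2_10 c2_11)) (T.all_node (T.all_node c2_12 c2_13) (T.all_node c2_14 c2_15)))) (T.all_node (T.all_node (T.all_node (T.all_node c2_16 c2_17) (T.all_node c2_18 c2_19)) (T.all_node (T.all_node c2_20 c2_21) (T.all_node c2_22 c2_23))) (T.all_node (T.all_node (T.all_node c2_24 c2_25) (T.all_node c2_26 c2_27)) (T.all_node (T.all_node c2_28 c2_29) (T.all_node c2_30 c2_31)))))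
end Crest.Agent.R35
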