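import Crest.Agent.R35.G
set_option autoImplicit false
namespace Crest.Agent.R35
theorem c3_0 : d3_0.all (check G) = true := by decide +kernel
theorem c3_1 : d3_1.all (check G) = true := by decide +kernel
theorem c3_2 : d3_2.all (check G) = true := by decide +kernel
theorem c3_3 : d3_3.all (check G) = true := by decide +kernel
theorem c3_4 : d3_4.all (check G) = true := by decide +kernel
theorem c3_5 : d3_5.all (check G) = true := by decide +kernel
theorem c3_6 : d3_6.all (check G) = true := by decide +kernel
theorem c3_7 : d3_7.all (check G) = true := by decide +kernel
theorem c3_8 : d3_8.all (check G) = true := by decide +kernel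
theorem c3_9 : d3_9.all (check G) = true := by decide +kernel
theorem c3_10 : d3_10.all (check G) = true := by decide +kernel
theorem c3_11 : d3_11.all (check G) = true := by decide +kernel
theorem c3_12 : d3_12.all (check G) = true := by decide +kernel
theorem c3_13 : d3_13.all (check G) = true := by decide +kernel
theorem c3_14 : d3_14.all (check G) = true := by decide +kernel
theorem c3_15 : d3_15.all (check G) = true := by decide +kernel
theorem c3_16 : d3_16.all (check G) = true := by decide +kernel
theorem c3_17 : d3_17.all (check G) = true := by decide +kernel
theorem c3_18 : d3_18.all (check G) = true := by decide +kernel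
theorem c3_19 : d3_19.all (check G) = true := by decide +kernel
theorem c3_20 : d3_20.all (check G) = true := by decide +kernel
theorem c3_21 : d3_21.all (check G) = true := by decide +kernel
theorem c3_22 : d3_22.all (check G) = true := by decide +kernel
theorem c3_23 : d3_23.all (check G) = true := by decide +kernel
theorem c3_24 : d3_24.all (check G) = true := by decide +kernel
theorem c3_25 : d3_25.all (check G) = true := by decide +kernel
theorem c3_26 : d3_26.all (check G) = true := by decide +kernel
theorem c3_27 : d3_27.all (check G) = true := by decide +kernel
theorem c3_28 : d3_28.all (check G) = true := by decide +kernel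
theorem c3_29 : d3_29.all (check G) = true := by decide +kernel
theorem c3_30 : d3_30.all (check G) = true := by decide +kernel
theorem c3_31 : d3_31.all (check G) = true := by decide +kernel
theorem c3 : d3.all (check G) = true :=
 (T.all_node (T.all_node (T.all_node (T.all_node (T.all_node c3_0 c3_1) (T.all_node c3_2 c3_3)) (T.all_node (T.all_node c3_4 c3_5) (T.all_node c3_6 c3_7))) (T.all_node (T.all_node (T.all_node c3_8 c3_9) (T.all_node c3_10 c3_11)) (T.all_node (T.all_node c3_12 c3_13) (T.all_node c3_14 c3_15)))) (T.all_node (T.all_node (T.all_node (T.all_node c3_16 c3_17) (T.all_node c3_18 c3_19)) (T.all_node (T.all_node c3_20 c3_21) (T.all_node c3_22 c3_23))) (T.all_node (T.all_node (T.all_node c3_24 c3_25) (T.all_node c3_26 c3_27)) (T.all_node (T.all_node c3_28 c3_29) (T.all_node c3_30 c3_31)))))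
end Crest.Agent.R35
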