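import Crest.Agent.R35.G
set_option autoImplicit false
namespace Crest.Agent.R35
theorem c4_0 : d4_0.all (check G) = true := by decide +kernel
theorem c4_1 : d4_1.all (check G) = true := by decide +kernel
theorem c4_2 : d4_2.all (check G) = true := by decide +kernel
theorem c4_3 : d4_3.all (check G) = true := by decide +kernel
theorem c4_4 : d4_4.all (check G) = true := by decide +kernel
theorem c4_5 : d4_5.all (check G) = true := by decide +kernel
theorem c4_6 : d4_6.all (check G) = true := by decide +kernel
theorem c4_7 : d4_7.all (check G) = true := by decide +kernel
theorem c4_8 : d4_8.all (check G) = true := by decide +kernel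
theorem c4_9 : d4_9.all (check G) = true := by decide +kernel
theorem c4_10 : d4_10.all (check G) = true := by decide +kernel
theorem c4_11 : d4_11.all (check G) = true := by decide +kernel
theorem c4_12 : d4_12.all (check G) = true := by decide +kernel
theorem c4_13 : d4_13.all (check G) = true := by decide +kernel
theorem c4_14 : d4_14.all (check G) = true := by decide +kernel
theorem c4_15 : d4_15.all (check G) = true := by decide +kernel
theorem c4_16 : d4_16.all (check G) = true := by decide +kernel
theorem c4_17 : d4_17.all (check G) = true := by decide +kernel
theorem c4_18 : d4_18.all (check G) = true := by decide +kernel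
theorem c4_19 : d4_19.all (check G) = true := by decide +kernel
theorem c4_20 : d4_20.all (check G) = true := by decide +kernel
theorem c4_21 : d4_21.all (check G) = true := by decide +kernel
theorem c4_22 : d4_22.all (check G) = true := by decide +kernel
theorem c4_23 : d4_23.all (check G) = true := by decide +kernel
theorem c4_24 : d4_24.all (check G) = true := by decide +kernel
theorem c4 : d4.all (check G) = true :=
 (T.all_node (T.all_node (T.all_node (T.all_node c4_0 (T.all_node c4_1 c4_2)) (T.all_node c4_3 (T.all_node c4_4 c4_5))) (T.all_node (T.all_node c4_6 (T.all_node c4_7 c4_8)) (T.all_node c4_9 (T.all_node c4_10 c4_11)))) (T.all_node (T.all_node (T.all_node c4_12 (T.all_node c4_13 c4_14)) (T.all_node c4_15 (T.all_node c4_16 c4_17))) (T.all_node (T.all_node c4_18 (T.all_node c4_19 c4_20)) (T.all_node (T.all_node c4_21 c4_22) (T.all_node c4_23 c4_24)))))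
end Crest.Agent.R35
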