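import Crest.Agent.R35.C0
import Crest.Agent.R35.C1
import Crest.Agent.R35.C2
import Crest.Agent.R35.C3
import Crest.Agent.R35.C4
set_option autoImplicit false
namespace Crest.Agent.R35
theorem allG : G.all (check G) = true :=
 (T.all_node (T.all_node c0 c1) (T.all_node c2 (T.all_node c3 c4)))
theorem win21 : Win 21 ∅ ∅ := win_of_table allG 9748 (by decide +kernel) (by decide +kernel)
end Crest.Agent.R35
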