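import Crest.Agent.R35.G
set_option autoImplicit false
namespace Crest.Agent.R35
theorem c0_0 : d0_0.all (check G) = true := by decide +kernel
theorem c0_1 : d0_1.all (check G) = true := by decide +kernel
theorem c0_2 : d0_2.all (check G) = true := by decide +kernel
theorem c0_3 : d0_3.all (check G) = true := by decide +kernel
theorem c0_4 : d0_4.all (check G) = true := by decide +kernel
theorem c0_5 : d0_5.all (check G) = true := by decide +kernel
theorem c0_6 : d0_6.all (check G) = true := by decide +kernel
theorem c0_7 : d0_7.all (check G) = true := by decide +kernel
theorem c0_8 : d0_8.all (check G) = true := by decide +kernel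
theorem c0_9 : d0_9.all (check G) = true := by decide +kernel
theorem c0_10 : d0_10.all (check G) = true := by decide +kernel
theorem c0_11 : d0_11.all (check G) = true := by decide +kernel
theorem c0_12 : d0_12.all (check G) = true := by decide +kernel
theorem c0_13 : d0_13.all (check G) = true := by decide +kernel
theorem c0_14 : d0_14.all (check G) = true := by decide +kernel
theorem c0_15 : d0_15.all (check G) = true := by decide +kernel
theorem c0_16 : d0_16.all (check G) = true := by decide +kernel
theorem c0_17 : d0_17.all (check G) = true := by decide +kernel
theorem c0_18 : d0_18.all (check G) = true := by decide +kernel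
theorem c0_19 : d0_19.all (check G) = true := by decide +kernel
theorem c0_20 : d0_20.all (check G) = true := by decide +kernel
theorem c0_21 : d0_21.all (check G) = true := by decide +kernel
theorem c0_22 : d0_22.all (check G) = true := by decide +kernel
theorem c0_23 : d0_23.all (check G) = true := by decide +kernel
theorem c0_24 : d0_24.all (check G) = true := by decide +kernel
theorem c0_25 : d0_25.all (check G) = true := by decide +kernel
theorem c0_26 : d0_26.all (check G) = true := by decide +kernel
theorem c0_27 : d0_27.all (check G) = true := by decide +kernel
theorem c0_28 : d0_28.all (check G) = true := by decide +kernel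
theorem c0_29 : d0_29.all (check G) = true := by decide +kernel
theorem c0_30 : d0_30.all (check G) = true := by decide +kernel
theorem c0_31 : d0_31.all (check G) = true := by decide +kernel
theorem c0 : d0.all (check G) = true :=
 (T.all_node (T.all_node (T.all_node (T.all_node (T.all_node c0_0 c0_1) (T.all_node c0_2 c0_3)) (T.all_node (T.all_node c0_4 c0_5) (T.all_node c0_6 c0_7))) (T.all_node (T.all_node (T.all_node c0_8 c0_9) (T.all_node c0_10 c0_11)) (T.all_node (T.all_node c0_12 c0_13) (T.all_node c0_14 c0_15)))) (T.all_node (T.all_node (T.all_node (T.all_node c0_16 c0_17) (T.all_node c0_18 c0_19)) (T.all_node (T.all_node c0_20 c0_21) (T.all_node c0_22 c0_23))) (T.all_node (T.all_node (T.all_node c0_24 c0_25) (T.all_node c0_26 c0_27)) (T.all_node (T.all_node c0_28 c0_29) (T.all_node c0_30 c0_31)))))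
end Crest.Agent.R35
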