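import Crest.Agent.R35.Game

/-! A kernel-friendly checker for tables of Snaky cards (bit masks with stride 48). -/

set_option autoImplicit false

namespace Crest.Agent.R35
open Crest.CombinatoricsR.PolyominoGame

/-- the cell with index `i` -/
def cell (i : ℕ) : Cell := (((i % 48 : ℕ) : ℤ), ((i / 48 : ℕ) : ℤ))

/-- the set of cells of a mask -/
def S (m : ℕ) : Set Cell := {p | ∃ i, m.testBit i = true ∧ p = cell i}

theorem cell_inj {i j : ℕ} (h : cell i = cell j) : i = j := by
  simp only [cell, Prod.mk.injEq, Nat.cast_inj] at h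
  omega

theorem mem_S {m i : ℕ} : cell i ∈ S m ↔ m.testBit i = true :=
  ⟨fun ⟨_, h, e⟩ => cell_inj e ▸ h, fun h => ⟨i, h, rfl⟩⟩

theorem S_sub {a b : ℕ} (h : Nat.land a b = a) : S a ⊆ S b := by
  rintro _ ⟨i, hi, rfl⟩
  have : (a &&& b).testBit i = true := by
    have e : a &&& b = a := h
    rw [e]; exact hi
  rw [Nat.testBit_and, Bool.and_eq_true] at this
  exact mem_S.2 this.2

theorem S_land (a b : ℕ) : S (Nat.land a b) = S a ∩ S b := by
  ext p
  constructor
  · rintro ⟨i, hi, rfl⟩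
    have : (a &&& b).testBit i = true := hi
    rw [Nat.testBit_and, Bool.and_eq_true] at this
    exact ⟨mem_S.2 this.1, mem_S.2 this.2⟩
  · rintro ⟨⟨i, hi, rfl⟩, h2⟩
    refine mem_S.2 ?_
    change (a &&& b).testBit i = true
    rw [Nat.testBit_and, hi, mem_S.1 h2]; rfl

theorem S_lor_bit (m c : ℕ) : S (Nat.lor m (Nat.shiftLeft 1 c)) = insert (cell c) (S m) := by
  ext p
  constructor
  · rintro ⟨i, hi, rfl⟩
    have : (m ||| 1 <<< c).testBit i = true := hi
    rw [Nat.testBit_or, Bool.or_eq_true, Nat.one_shiftLeft, Nat.testBit_two_pow] at this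
    rcases this with h | h
    · exact Or.inr (mem_S.2 h)
    · have : c = i := by simpa using h
      exact Or.inl (by rw [this])
  · rintro (rfl | ⟨i, hi, rfl⟩)
    · refine mem_S.2 ?_
      change (m ||| 1 <<< c).testBit c = true
      rw [Nat.testBit_or, Nat.one_shiftLeft, Nat.testBit_two_pow]; simp
    · refine mem_S.2 ?_
      change (m ||| 1 <<< c).testBit i = true
      rw [Nat.testBit_or, hi]; rfl

/-- all cells in columns `< 24` and rows `< 24` -/
def LOW : ℕ := (2 ^ 24 - 1) * ((2 ^ 1152 - 1) / (2 ^ 48 - 1))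

def Low (m : ℕ) : Prop := ∀ i, m.testBit i = true → i % 48 < 24

theorem LOW_low : Low LOW := by
  intro i hi
  by_cases h : i < 1152
  · have : ∀ i < 1152, LOW.testBit i = true → i % 48 < 24 := by decide +kernel
    exact this i h hi
  · have h2 : LOW < 2 ^ i := lt_of_lt_of_le (by decide +kernel : LOW < 2 ^ 1152)
      (Nat.pow_le_pow_right (by norm_num) (by omega))
    rw [Nat.testBit_lt_two_pow h2] at hi
    exact absurd hi (by simp)

theorem low_of {a b : ℕ} (h : Nat.land (Nat.lor a b) LOW = Nat.lor a b) : Low a ∧ Low b := by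
  have key : ∀ i, (a ||| b).testBit i = true → i % 48 < 24 := by
    intro i hi
    have e : (a ||| b) &&& LOW = a ||| b := h
    rw [← e, Nat.testBit_and, Bool.and_eq_true] at hi
    exact LOW_low i hi.2
  exact ⟨fun i hi => key i (by rw [Nat.testBit_or, hi]; rfl),
    fun i hi => key i (by rw [Nat.testBit_or, hi]; simp)⟩

theorem S_shift {m dx dy : ℕ} (hm : Low m) (hx : dx < 24) :
    S (Nat.shiftLeft m (dy * 48 + dx)) = trans dx dy '' S m := by
  have hc : ∀ i, m.testBit i = true → cell (i + (dy * 48 + dx)) = trans dx dy (cell i) := by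
    intro i hi
    have := hm i hi
    simp only [cell, trans, Equiv.coe_fn_mk, Prod.mk.injEq]
    constructor
    · have : (i + (dy * 48 + dx)) % 48 = i % 48 + dx := by omega
      rw [this]; push_cast; ring
    · have : (i + (dy * 48 + dx)) / 48 = i / 48 + dy := by omega
      rw [this]; push_cast; ring
  ext p
  constructor
  · rintro ⟨j, hj, rfl⟩
    have hj' : (m <<< (dy * 48 + dx)).testBit j = true := hj
    rw [Nat.testBit_shiftLeft, Bool.and_eq_true, decide_eq_true_eq] at hj'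
    refine ⟨cell (j - (dy * 48 + dx)), mem_S.2 hj'.2, ?_⟩
    rw [← hc _ hj'.2, Nat.sub_add_cancel hj'.1]
  · rintro ⟨_, ⟨i, hi, rfl⟩, rfl⟩
    rw [← hc i hi]
    refine mem_S.2 ?_
    change (m <<< (dy * 48 + dx)).testBit _ = true
    rw [Nat.testBit_shiftLeft]
    simp [hi]

/-- search tree of cards `(u, m, k)` -/
inductive T : Type
  | leaf (u m k : ℕ) : T
  | node (p : ℕ) (l r : T) : T

noncomputable def T.look {α : Type} (t : T) (i : ℕ) (f : ℕ → ℕ → ℕ → α) : α :=
  T.rec (motive := fun _ => α) f (fun p _ _ l r => cond (Nat.ble p i) r l) t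

noncomputable def T.all (t : T) (f : ℕ → ℕ → ℕ → Bool) : Bool :=
  T.rec (motive := fun _ => Bool) f (fun _ _ _ l r => and l r) t

def T.get : T → ℕ → ℕ × ℕ × ℕ
  | .leaf u m k, _ => (u, m, k)
  | .node p l r, i => cond (Nat.ble p i) (r.get i) (l.get i)

theorem T.look_eq {α : Type} (t : T) (i : ℕ) (f : ℕ → ℕ → ℕ → α) :
    t.look i f = f (t.get i).1 (t.get i).2.1 (t.get i).2.2 := by
  induction t with
  | leaf u m k => rfl
  | node p l r ihl ihr =>
    change cond (Nat.ble p i) (r.look i f) (l.look i f) = _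
    rw [ihl, ihr, T.get]
    cases Nat.ble p i <;> rfl

theorem T.all_get {t : T} {f : ℕ → ℕ → ℕ → Bool} (h : t.all f = true) (i : ℕ) :
    f (t.get i).1 (t.get i).2.1 (t.get i).2.2 = true := by
  induction t with
  | leaf u m k => exact h
  | node p l r ihl ihr =>
    have h' : (l.all f && r.all f) = true := h
    rw [Bool.and_eq_true] at h'
    rw [T.get]
    cases Nat.ble p i
    · exact ihl h'.1
    · exact ihr h'.2

theorem T.all_node {p : ℕ} {l r : T} {f : ℕ → ℕ → ℕ → Bool} (h1 : l.all f = true)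
    (h2 : r.all f = true) : (T.node p l r).all f = true := by
  change (l.all f && r.all f) = true
  rw [h1, h2]; rfl

/-- loop over the children of a step card -/
noncomputable def loop (G : T) (u m1 d n : ℕ) : ℕ → ℕ → Bool :=
  Nat.rec (motive := fun _ => ℕ → ℕ → Bool) (fun _ I => Nat.beq (Nat.land I m1) I)
    (fun _ ih ks I => G.look (Nat.mod ks 16777216) fun u' m' k' =>
      (fun s : ℕ =>
        and (Nat.ble (Nat.mod (Nat.shiftRight ks 24) 256) 23)
        (and (Nat.ble (Nat.succ (Nat.div (Nat.mod k' 64) 2)) d)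
        (and (Nat.beq (Nat.land (Nat.shiftLeft m' s) m1) (Nat.shiftLeft m' s))
        (and (Nat.beq (Nat.land (Nat.shiftLeft u' s) u) (Nat.shiftLeft u' s))
          (ih (Nat.shiftRight ks 40) (Nat.land I (Nat.shiftLeft u' s)))))))
      (Nat.add (Nat.mul (Nat.mod (Nat.shiftRight ks 32) 256) 48) (Nat.mod (Nat.shiftRight ks 24) 256))) n

/-- reflected coordinate -/
def rf (fl : Bool) (a x : ℕ) : ℕ := cond fl (Nat.sub a x) x

/-- index map of a symmetry: optional flips of x about `a` and y about `b`, optional swap -/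
def img (fx fy sw : Bool) (a b i : ℕ) : ℕ :=
  cond sw
    (Nat.add (Nat.mul (rf fx a (Nat.mod i 48)) 48) (rf fy b (Nat.div i 48)))
    (Nat.add (Nat.mul (rf fy b (Nat.div i 48)) 48) (rf fx a (Nat.mod i 48)))

/-- all bits of `x` are mapped into `y` -/
noncomputable def symLoop (fx fy sw : Bool) (a b y n : ℕ) : ℕ → Bool :=
  Nat.rec (motive := fun _ => ℕ → Bool) (fun x => Nat.beq x 0)
    (fun _ ih x => cond (Nat.beq x 0) true
      (and (Nat.ble (Nat.mod (Nat.log2 x) 48) a)
      (and (Nat.ble (Nat.div (Nat.log2 x) 48) b)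
      (and (Nat.beq (Nat.mod (Nat.shiftRight y (img fx fy sw a b (Nat.log2 x))) 2) 1)
        (ih (Nat.sub x (Nat.shiftLeft 1 (Nat.log2 x)))))))) n

/-- reflection of the second coordinate -/
def flipY (a : ℤ) : Cell ≃ Cell := ((Equiv.prodComm ℤ ℤ).trans (flipX a)).trans (Equiv.prodComm ℤ ℤ)

theorem pres_flipY (a : ℤ) : Pres (flipY a) := (pres_swap.comp (pres_flipX a)).comp pres_swap

def symMap (fx fy sw : Bool) (a b : ℕ) : Cell ≃ Cell :=
  ((cond fx (flipX a) (Equiv.refl _)).trans (cond fy (flipY b) (Equiv.refl _))).trans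
    (cond sw (Equiv.prodComm ℤ ℤ) (Equiv.refl _))

theorem pres_symMap (fx fy sw : Bool) (a b : ℕ) : Pres (symMap fx fy sw a b) := by
  refine Pres.comp (Pres.comp ?_ ?_) ?_
  · cases fx
    · exact pres_refl
    · exact pres_flipX _
  · cases fy
    · exact pres_refl
    · exact pres_flipY _
  · cases sw
    · exact pres_refl
    · exact pres_swap

theorem cell_img {fx fy sw : Bool} {a b i : ℕ} (h1 : i % 48 ≤ a) (h2 : i / 48 ≤ b) (ha : a ≤ 47)
    (hb : b ≤ 47) : cell (img fx fy sw a b i) = symMap fx fy sw a b (cell i) := by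
  have e : ∀ x y : ℕ, y < 48 → cell (x * 48 + y) = ((y : ℤ), (x : ℤ)) := by
    intro x y h
    have e1 : (x * 48 + y) % 48 = y := by omega
    have e2 : (x * 48 + y) / 48 = x := by omega
    rw [cell, e1, e2]
  have h3 : i % 48 < 48 := Nat.mod_lt _ (by norm_num)
  have c1 : ((a - i % 48 : ℕ) : ℤ) = (a : ℤ) - ((i % 48 : ℕ) : ℤ) := Nat.cast_sub h1
  have c2 : ((b - i / 48 : ℕ) : ℤ) = (b : ℤ) - ((i / 48 : ℕ) : ℤ) := Nat.cast_sub h2
  cases fx <;> cases fy <;> cases sw
  · exact e (i / 48) (i % 48) (by omega)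
  · exact e (i % 48) (i / 48) (by omega)
  · exact (e (b - i / 48) (i % 48) (by omega)).trans (by rw [c2]; rfl)
  · exact (e (i % 48) (b - i / 48) (by omega)).trans (by rw [c2]; rfl)
  · exact (e (i / 48) (a - i % 48) (by omega)).trans (by rw [c1]; rfl)
  · exact (e (a - i % 48) (i / 48) (by omega)).trans (by rw [c1]; rfl)
  · exact (e (b - i / 48) (a - i % 48) (by omega)).trans (by rw [c1, c2]; rfl)
  · exact (e (a - i % 48) (b - i / 48) (by omega)).trans (by rw [c1, c2]; rfl)

theorem symLoop_spec {fx fy sw : Bool} {a b y : ℕ} (ha : a ≤ 47) (hb' : b ≤ 47) : ∀ (n x : ℕ),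
    symLoop fx fy sw a b y n x = true → symMap fx fy sw a b '' S x ⊆ S y := by
  intro n
  induction n with
  | zero =>
    intro x h
    have : x = 0 := Nat.eq_of_beq_eq_true h
    subst this
    rintro _ ⟨_, ⟨i, hi, rfl⟩, rfl⟩
    simp at hi
  | succ n ih =>
    intro x h
    by_cases hx : x = 0
    · subst hx
      rintro _ ⟨_, ⟨i, hi, rfl⟩, rfl⟩
      simp at hi
    · have hb : Nat.beq x 0 = false := by
        cases hh : Nat.beq x 0
        · rfl
        · exact absurd (Nat.eq_of_beq_eq_true hh) hx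
      have h' : cond (Nat.beq x 0) true
        (and (Nat.ble (Nat.mod (Nat.log2 x) 48) a)
        (and (Nat.ble (Nat.div (Nat.log2 x) 48) b)
        (and (Nat.beq (Nat.mod (Nat.shiftRight y (img fx fy sw a b (Nat.log2 x))) 2) 1)
          (symLoop fx fy sw a b y n (Nat.sub x (Nat.shiftLeft 1 (Nat.log2 x))))))) = true := h
      rw [hb] at h'
      simp only [cond_false, Bool.and_eq_true] at h'
      obtain ⟨h1, h2, h3, h4⟩ := h'
      have h5 := ih _ h4
      rintro _ ⟨_, ⟨i, hi, rfl⟩, rfl⟩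
      by_cases hil : i = Nat.log2 x
      · subst hil
        rw [← cell_img (Nat.le_of_ble_eq_true h1) (Nat.le_of_ble_eq_true h2) ha hb']
        refine mem_S.2 ?_
        have h6 : (y >>> img fx fy sw a b (Nat.log2 x)) % 2 = 1 := Nat.eq_of_beq_eq_true h3
        rw [Nat.testBit_eq_decide_div_mod_eq, ← Nat.shiftRight_eq_div_pow, h6]; rfl
      · refine h5 ⟨_, mem_S.2 ?_, rfl⟩
        change (x - 1 <<< Nat.log2 x).testBit i = true
        rw [Nat.one_shiftLeft]
        have hl : 2 ^ Nat.log2 x ≤ x := Nat.log2_self_le hx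
        have hu : x < 2 ^ (Nat.log2 x + 1) := Nat.lt_log2_self
        have hlt : i < Nat.log2 x := by
          by_contra hc
          have : x < 2 ^ i := lt_of_lt_of_le hu (Nat.pow_le_pow_right (by norm_num) (by omega))
          rw [Nat.testBit_lt_two_pow this] at hi
          exact absurd hi (by simp)
        have e : x = 2 ^ Nat.log2 x + (x - 2 ^ Nat.log2 x) := by omega
        rw [e, Nat.testBit_two_pow_add_gt hlt] at hi
        exact hi

/-- the base copy: cells 0,1,2,3 of row 0 and 3,4 of row 1 -/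
def SN : ℕ := 6755399441055759

theorem copy_SN : ContainsCopy (S SN) := by
  refine ⟨(0, 0), 1, 1, Or.inl rfl, Or.inl rfl, Or.inl ?_⟩
  intro p hp
  simp only [snaky, Finset.mem_insert, Finset.mem_singleton] at hp
  rcases hp with rfl | rfl | rfl | rfl | rfl | rfl
  · exact ⟨0, by decide, by decide⟩
  · exact ⟨1, by decide, by decide⟩
  · exact ⟨2, by decide, by decide⟩
  · exact ⟨3, by decide, by decide⟩
  · exact ⟨51, by decide, by decide⟩
  · exact ⟨52, by decide, by decide⟩

/-- header `k`: rank (6 bits), type (2 bits), move (11 bits), number of children (13 bits),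
then the children (40 bits each). -/
noncomputable def check (G : T) (u m k : ℕ) : Bool :=
  and (Nat.beq (Nat.land (Nat.lor u m) LOW) (Nat.lor u m))
  (cond (Nat.beq (Nat.mod (Nat.shiftRight k 6) 4) 0)
    (and (Nat.beq (Nat.mod (Nat.shiftRight u (Nat.mod (Nat.shiftRight k 8) 2048)) 2) 1)
      (loop G u (Nat.lor m (Nat.shiftLeft 1 (Nat.mod (Nat.shiftRight k 8) 2048)))
        (Nat.div (Nat.mod k 64) 2) (Nat.succ (Nat.mod (Nat.shiftRight k 19) 8192))
        (Nat.shiftRight k 32) u))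
    (cond (Nat.beq (Nat.mod (Nat.shiftRight k 6) 4) 1)
      (Nat.beq m SN)
      (G.look (Nat.mod (Nat.shiftRight k 32) 16777216) fun u' m' k' =>
        and (Nat.ble (Nat.succ (Nat.mod k' 64)) (Nat.mod k 64))
        (and (Nat.ble (Nat.mod (Nat.shiftRight k 56) 256) 47)
        (and (Nat.ble (Nat.shiftRight k 64) 47)
        (and (symLoop (Nat.beq (Nat.mod (Nat.shiftRight k 8) 2) 1)
            (Nat.beq (Nat.mod (Nat.shiftRight k 9) 2) 1) (Nat.beq (Nat.mod (Nat.shiftRight k 10) 2) 1)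
            (Nat.mod (Nat.shiftRight k 56) 256) (Nat.shiftRight k 64) u 600 u')
          (symLoop (Nat.beq (Nat.mod (Nat.shiftRight k 8) 2) 1)
            (Nat.beq (Nat.mod (Nat.shiftRight k 9) 2) 1) (Nat.beq (Nat.mod (Nat.shiftRight k 10) 2) 1)
            (Nat.mod (Nat.shiftRight k 56) 256) (Nat.shiftRight k 64) m 600 m')))))))

/-- meaning of entry `i` of the table -/
def GoodAt (G : T) (i : ℕ) : Prop :=
  Good ((G.get i).2.2 % 64 / 2) (S (G.get i).2.1) (S (G.get i).1)

theorem loop_step {G : T} {u m1 d n ks I : ℕ} (hl : ∀ i, Low (G.get i).1 ∧ Low (G.get i).2.1)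
    (ih : ∀ i, (G.get i).2.2 % 64 / 2 < d → GoodAt G i) (h : loop G u m1 d (n + 1) ks I = true) :
    ∃ d₁ m₁ u₁ ks', d₁ < d ∧ Good d₁ (S m₁) (S u₁) ∧ S m₁ ⊆ S m1 ∧ S u₁ ⊆ S u ∧
      loop G u m1 d n ks' (Nat.land I u₁) = true := by
  have h' : G.look (Nat.mod ks 16777216) (fun u' m' k' =>
      (fun s : ℕ =>
        and (Nat.ble (Nat.mod (Nat.shiftRight ks 24) 256) 23)
        (and (Nat.ble (Nat.succ (Nat.div (Nat.mod k' 64) 2)) d)
        (and (Nat.beq (Nat.land (Nat.shiftLeft m' s) m1) (Nat.shiftLeft m' s))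
        (and (Nat.beq (Nat.land (Nat.shiftLeft u' s) u) (Nat.shiftLeft u' s))
          (loop G u m1 d n (Nat.shiftRight ks 40) (Nat.land I (Nat.shiftLeft u' s)))))))
      (Nat.add (Nat.mul (Nat.mod (Nat.shiftRight ks 32) 256) 48)
        (Nat.mod (Nat.shiftRight ks 24) 256))) = true := h
  rw [T.look_eq] at h'
  simp only [Bool.and_eq_true] at h'
  obtain ⟨h1, h2, h3, h4, h5⟩ := h'
  have h1' : Nat.mod (Nat.shiftRight ks 24) 256 < 24 := Nat.lt_succ_of_le (Nat.le_of_ble_eq_true h1)
  have h2' : (G.get (Nat.mod ks 16777216)).2.2 % 64 / 2 < d := Nat.le_of_ble_eq_true h2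
  refine ⟨_, _, _, _, h2', ?_, S_sub (Nat.eq_of_beq_eq_true h3), S_sub (Nat.eq_of_beq_eq_true h4), h5⟩
  have g := (ih _ h2').map (pres_trans (Nat.mod (Nat.shiftRight ks 24) 256 : ℕ)
    (Nat.mod (Nat.shiftRight ks 32) 256 : ℕ))
  rw [← S_shift (hl _).1 h1', ← S_shift (hl _).2 h1'] at g
  exact g

theorem loop_spec {G : T} {u m1 d : ℕ} (hl : ∀ i, Low (G.get i).1 ∧ Low (G.get i).2.1)
    (ih : ∀ i, (G.get i).2.2 % 64 / 2 < d → GoodAt G i) : ∀ (n ks I : ℕ),
    loop G u m1 d n ks I = true → ∀ b, b ∈ S I → b ∉ S m1 →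
      ∃ M₁ U₁, Good (d - 1) M₁ U₁ ∧ M₁ ⊆ S m1 ∧ U₁ ⊆ S u ∧ b ∉ U₁ := by
  intro n
  induction n with
  | zero =>
    intro ks I h b hb hb'
    exact absurd (S_sub (Nat.eq_of_beq_eq_true h) hb) hb'
  | succ n ihn =>
    intro ks I h b hb hb'
    obtain ⟨d₁, m₁, u₁, ks', k1, k2, k3, k4, k5⟩ := loop_step hl ih h
    by_cases hu : b ∈ S u₁
    · exact ihn _ _ k5 b (by rw [S_land]; exact ⟨hb, hu⟩) hb'
    · exact ⟨_, _, k2.mono (by omega) subset_rfl subset_rfl, k3, k4, hu⟩

theorem check_low {G : T} {u m k : ℕ} (h : check G u m k = true) : Low u ∧ Low m := by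
  unfold check at h
  rw [Bool.and_eq_true] at h
  exact low_of (Nat.eq_of_beq_eq_true h.1)

theorem check_good {G : T} {u m k : ℕ} (hl : ∀ i, Low (G.get i).1 ∧ Low (G.get i).2.1)
    (ih : ∀ i, (G.get i).2.2 % 64 < k % 64 → GoodAt G i) (h : check G u m k = true) :
    Good (k % 64 / 2) (S m) (S u) := by
  unfold check at h
  rw [Bool.and_eq_true] at h
  have h2 := h.2
  cases h0 : Nat.beq (Nat.mod (Nat.shiftRight k 6) 4) 0
  · rw [h0, cond_false] at h2
    cases h1 : Nat.beq (Nat.mod (Nat.shiftRight k 6) 4) 1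
    · rw [h1, cond_false, T.look_eq] at h2
      simp only [Bool.and_eq_true] at h2
      obtain ⟨k1, k2, k5, k3, k4⟩ := h2
      have k5' := Nat.le_of_ble_eq_true k5
      have k1' : (G.get (Nat.mod (Nat.shiftRight k 32) 16777216)).2.2 % 64 < k % 64 :=
        Nat.le_of_ble_eq_true k1
      have k2' := Nat.le_of_ble_eq_true k2
      exact ((ih _ k1').map (pres_symMap _ _ _ _ _)).mono (Nat.div_le_div_right k1'.le)
        (symLoop_spec k2' k5' _ _ k4) (symLoop_spec k2' k5' _ _ k3)
    · rw [h1, cond_true] at h2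
      have : m = SN := Nat.eq_of_beq_eq_true h2
      subst this
      exact good_base copy_SN _
  · rw [h0, cond_true, Bool.and_eq_true] at h2
    obtain ⟨k1, k2⟩ := h2
    have ih' : ∀ i, (G.get i).2.2 % 64 / 2 < k % 64 / 2 → GoodAt G i :=
      fun i hi => ih i (by omega)
    obtain ⟨d₁, m₁, u₁, ks', j1, j2, j3, j4, -⟩ := loop_step hl ih' k2
    have j1' : d₁ < k % 64 / 2 := j1
    have e : k % 64 / 2 = (k % 64 / 2 - 1) + 1 := by omega
    rw [e]
    refine good_step (c := cell (Nat.mod (Nat.shiftRight k 8) 2048)) ?_ ?_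
    · refine mem_S.2 ?_
      have h6 : (u >>> (Nat.mod (Nat.shiftRight k 8) 2048)) % 2 = 1 := Nat.eq_of_beq_eq_true k1
      rw [Nat.testBit_eq_decide_div_mod_eq, ← Nat.shiftRight_eq_div_pow, h6]; rfl
    · intro b hb
      rw [← S_lor_bit] at hb ⊢
      by_cases hu : b ∈ S u
      · exact loop_spec hl ih' _ _ _ k2 b hu hb
      · exact ⟨_, _, j2.mono (by omega) subset_rfl subset_rfl, j3, j4, fun hx => hu (j4 hx)⟩

theorem all_good {G : T} (h : G.all (check G) = true) (i : ℕ) : GoodAt G i := by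
  have hl : ∀ i, Low (G.get i).1 ∧ Low (G.get i).2.1 := fun i => check_low (T.all_get h i)
  have key : ∀ r, ∀ i, (G.get i).2.2 % 64 < r → GoodAt G i := by
    intro r
    induction r with
    | zero => intro i hi; omega
    | succ r ih =>
      intro i hi
      exact check_good hl (fun j hj => ih j (by omega)) (T.all_get h i)
  exact key _ i (Nat.lt_succ_self _)

theorem win_of_table {G : T} (h : G.all (check G) = true) (i : ℕ) (h1 : (G.get i).2.1 = 0)
    (h2 : (G.get i).2.2 % 64 / 2 ≤ 21) : Win 21 ∅ ∅ := by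
  have g := all_good h i
  unfold GoodAt at g
  rw [h1] at g
  refine win_mono h2 (g ∅ ∅ ?_ (by simp) (by simp))
  rintro _ ⟨j, hj, rfl⟩
  simp at hj

end Crest.Agent.R35
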