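import Crest.Agent.R35.D0
import Crest.Agent.R35.D1
import Crest.Agent.R35.D2
import Crest.Agent.R35.D3
import Crest.Agent.R35.D4
set_option autoImplicit false
namespace Crest.Agent.R35
noncomputable def G : T :=
 (.node 4096 (.node 2048 (d0)
 (d1))
 (.node 6144 (d2)
 (.node 8192 (d3)
 (d4))))
end Crest.Agent.R35
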