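import Mathlib
import Crest.Prelude.Def_PolyominoGame

/-! Maker–Breaker game semantics for Snaky: winning positions, cards, policy extraction. -/

set_option autoImplicit false

namespace Crest.Agent.R35
open Crest.CombinatoricsR.PolyominoGame

abbrev Cell := ℤ × ℤ

/-- Maker is to move, owns `M`, Breaker owns `B`, Maker has `d` claims left. -/
def Win : ℕ → Finset Cell → Finset Cell → Prop
  | 0, M, _ => ContainsCopy (M : Set Cell)
  | d + 1, M, B => ∃ c, c ∉ M ∧ c ∉ B ∧
      ∀ b, b ∉ insert c M → b ∉ B → Win d (insert c M) (insert b B)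

theorem copy_mono {X Y : Set Cell} (h : X ⊆ Y) (hX : ContainsCopy X) : ContainsCopy Y := by
  obtain ⟨t, e1, e2, h1, h2, h3⟩ := hX
  refine ⟨t, e1, e2, h1, h2, ?_⟩
  rcases h3 with h3 | h3
  · exact Or.inl fun p hp => h (h3 p hp)
  · exact Or.inr fun p hp => h (h3 p hp)

theorem exists_free (M B : Finset Cell) : ∃ c, c ∉ M ∧ c ∉ B := by
  obtain ⟨c, hc⟩ := Infinite.exists_notMem_finset (M ∪ B)
  exact ⟨c, fun h => hc (Finset.mem_union_left _ h), fun h => hc (Finset.mem_union_right _ h)⟩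

theorem win_of_copy : ∀ (d : ℕ) (M B : Finset Cell), ContainsCopy (M : Set Cell) → Win d M B
  | 0, _, _, h => h
  | d + 1, M, B, h => by
    obtain ⟨c, h1, h2⟩ := exists_free M B
    refine ⟨c, h1, h2, fun b _ _ => win_of_copy d _ _ (copy_mono ?_ h)⟩
    intro x hx
    simp only [Finset.coe_insert, Set.mem_insert_iff]
    exact Or.inr hx

theorem win_succ : ∀ (d : ℕ) (M B : Finset Cell), Win d M B → Win (d + 1) M B
  | 0, M, B, h => win_of_copy 1 M B h
  | d + 1, _, _, h => by
    obtain ⟨c, h1, h2, h3⟩ := h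
    exact ⟨c, h1, h2, fun b hb hb' => win_succ d _ _ (h3 b hb hb')⟩

theorem win_mono {d e : ℕ} (h : d ≤ e) {M B : Finset Cell} (hw : Win d M B) : Win e M B := by
  induction h with
  | refl => exact hw
  | step _ ih => exact win_succ _ _ _ ih

/-- A card: owning `M`, with no Breaker stone in `U`, Maker (to move) wins within `d` claims. -/
def Good (d : ℕ) (M U : Set Cell) : Prop :=
  ∀ M' B : Finset Cell, M ⊆ (M' : Set Cell) → (∀ x ∈ B, x ∉ U) → (∀ x ∈ B, x ∉ M') → Win d M' B

theorem Good.mono {d e : ℕ} {M U M' U' : Set Cell} (h : Good d M U) (hd : d ≤ e) (hM : M ⊆ M')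
    (hU : U ⊆ U') : Good e M' U' :=
  fun M'' B h1 h2 h3 => win_mono hd (h M'' B (hM.trans h1) (fun x hx hu => h2 x hx (hU hu)) h3)

theorem good_base {M U : Set Cell} (h : ContainsCopy M) (d : ℕ) : Good d M U :=
  fun _ _ h1 _ _ => win_of_copy _ _ _ (copy_mono h1 h)

theorem good_step {d : ℕ} {M U : Set Cell} {c : Cell} (hc : c ∈ U)
    (h : ∀ b, b ∉ insert c M → ∃ M₁ U₁, Good d M₁ U₁ ∧ M₁ ⊆ insert c M ∧ U₁ ⊆ U ∧ b ∉ U₁) :
    Good (d + 1) M U := by
  intro M' B h1 h2 h3
  have key : ∀ c', c' ∉ M' → c' ∉ B → c ∈ insert c' M' → Win (d + 1) M' B := by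
    intro c' k1 k2 k3
    have hsub : insert c M ⊆ ((insert c' M' : Finset Cell) : Set Cell) := by
      intro x hx
      rcases hx with rfl | hx
      · exact_mod_cast k3
      · simp only [Finset.coe_insert, Set.mem_insert_iff]
        exact Or.inr (h1 hx)
    refine ⟨c', k1, k2, fun b hb hb' => ?_⟩
    obtain ⟨M₁, U₁, g, g1, g2, g3⟩ := h b (fun hx => hb (by exact_mod_cast hsub hx))
    refine g _ _ (g1.trans hsub) ?_ ?_
    · intro x hx
      rcases Finset.mem_insert.1 hx with rfl | hx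
      · exact g3
      · exact fun hu => h2 x hx (g2 hu)
    · intro x hx
      rcases Finset.mem_insert.1 hx with rfl | hx
      · exact hb
      · intro hm
        rcases Finset.mem_insert.1 hm with rfl | hm
        · exact k2 hx
        · exact h3 x hx hm
  by_cases hcM : c ∈ M'
  · obtain ⟨c', k1, k2⟩ := exists_free M' B
    exact key c' k1 k2 (Finset.mem_insert_of_mem hcM)
  · exact key c hcM (fun hb => h2 c hb hc) (Finset.mem_insert_self _ _)

/-- bijections of the board that carry copies to copies -/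
def Pres (g : Cell ≃ Cell) : Prop := ∀ X : Set Cell, ContainsCopy X → ContainsCopy (g '' X)

theorem win_map {g : Cell ≃ Cell} (hg : Pres g) : ∀ (d : ℕ) (M B : Finset Cell),
    Win d M B → Win d (M.map g.toEmbedding) (B.map g.toEmbedding)
  | 0, M, _, h => by
    have := hg _ h
    simpa [Win, Finset.coe_map] using this
  | d + 1, M, B, h => by
    obtain ⟨c, h1, h2, h3⟩ := h
    refine ⟨g c, by simpa using h1, by simpa using h2, fun b hb hb' => ?_⟩
    obtain ⟨b, rfl⟩ := g.surjective b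
    have k := win_map hg d _ _ (h3 b (by simpa using hb) (by simpa using hb'))
    simpa [Finset.map_insert] using k

theorem Good.map {g : Cell ≃ Cell} (hg : Pres g) {d : ℕ} {M U : Set Cell} (h : Good d M U) :
    Good d (g '' M) (g '' U) := by
  intro M' B h1 h2 h3
  have k := win_map hg d _ _ (h (M'.map g.symm.toEmbedding) (B.map g.symm.toEmbedding) ?_ ?_ ?_)
  · simpa [Finset.map_map] using k
  · intro x hx
    have := h1 (Set.mem_image_of_mem g hx)
    simpa using this
  · intro x hx hu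
    exact h2 (g x) (by simpa using hx) (Set.mem_image_of_mem g hu)
  · intro x hx hm
    exact h3 (g x) (by simpa using hx) (by simpa using hm)

/-- translation -/
def trans (a b : ℤ) : Cell ≃ Cell where
  toFun p := (p.1 + a, p.2 + b)
  invFun p := (p.1 - a, p.2 - b)
  left_inv p := by simp
  right_inv p := by simp

/-- reflection of the first coordinate -/
def flipX (a : ℤ) : Cell ≃ Cell where
  toFun p := (a - p.1, p.2)
  invFun p := (a - p.1, p.2)
  left_inv p := by simp
  right_inv p := by simp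

theorem pres_trans (a b : ℤ) : Pres (trans a b) := by
  rintro X ⟨t, e1, e2, h1, h2, h3⟩
  refine ⟨(t.1 + a, t.2 + b), e1, e2, h1, h2, ?_⟩
  rcases h3 with h3 | h3
  · refine Or.inl fun p hp => ⟨_, h3 p hp, ?_⟩
    simp only [trans, Equiv.coe_fn_mk, Prod.mk.injEq]; constructor <;> ring
  · refine Or.inr fun p hp => ⟨_, h3 p hp, ?_⟩
    simp only [trans, Equiv.coe_fn_mk, Prod.mk.injEq]; constructor <;> ring

theorem pres_flipX (a : ℤ) : Pres (flipX a) := by
  rintro X ⟨t, e1, e2, h1, h2, h3⟩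
  refine ⟨(a - t.1, t.2), -e1, e2, by rcases h1 with rfl | rfl <;> simp, h2, ?_⟩
  rcases h3 with h3 | h3
  · refine Or.inl fun p hp => ⟨_, h3 p hp, ?_⟩
    simp only [flipX, Equiv.coe_fn_mk, Prod.mk.injEq, and_true]; ring
  · refine Or.inr fun p hp => ⟨_, h3 p hp, ?_⟩
    simp only [flipX, Equiv.coe_fn_mk, Prod.mk.injEq, and_true]; ring

theorem pres_swap : Pres (Equiv.prodComm ℤ ℤ) := by
  rintro X ⟨t, e1, e2, h1, h2, h3⟩
  refine ⟨(t.2, t.1), e2, e1, h2, h1, ?_⟩
  rcases h3 with h3 | h3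
  · exact Or.inr fun p hp => ⟨_, h3 p hp, rfl⟩
  · exact Or.inl fun p hp => ⟨_, h3 p hp, rfl⟩

theorem Pres.comp {g h : Cell ≃ Cell} (hg : Pres g) (hh : Pres h) : Pres (g.trans h) := by
  intro X hX
  have := hh _ (hg X hX)
  simpa [Set.image_image] using this

theorem pres_refl : Pres (Equiv.refl Cell) := fun X hX => by simpa using hX

/-! ### from `Win 21 ∅ ∅` to a policy -/

open Classical in
noncomputable def mv (d : ℕ) (M B : Finset Cell) : Cell :=
  if h : Win (d + 1) M B then Classical.choose h else (0, 0)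

theorem mv_spec {d : ℕ} {M B : Finset Cell} (h : Win (d + 1) M B) :
    mv d M B ∉ M ∧ mv d M B ∉ B ∧
      ∀ b, b ∉ insert (mv d M B) M → b ∉ B → Win d (insert (mv d M B) M) (insert b B) := by
  have : mv d M B = Classical.choose h := by simp [mv, h]
  rw [this]
  exact Classical.choose_spec h

noncomputable def BS (b : ℕ → Cell) (k : ℕ) : Finset Cell := (Finset.range k).image b

noncomputable def MS (b : ℕ → Cell) : ℕ → Finset Cell
  | 0 => ∅
  | k + 1 => insert (mv (20 - k) (MS b k) (BS b k)) (MS b k)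

theorem BS_congr {b b' : ℕ → Cell} {k : ℕ} (h : ∀ j < k, b j = b' j) : BS b k = BS b' k :=
  Finset.image_congr fun j hj => h j (by simpa using hj)

theorem MS_congr {b b' : ℕ → Cell} : ∀ {k : ℕ}, (∀ j < k, b j = b' j) → MS b k = MS b' k
  | 0, _ => rfl
  | k + 1, h => by
    have h' : ∀ j < k, b j = b' j := fun j hj => h j (by omega)
    simp only [MS, MS_congr h', BS_congr h']

noncomputable def pol (l : List Cell) : Cell :=
  mv (20 - l.length) (MS (fun j => l.getD j (0, 0)) l.length) (BS (fun j => l.getD j (0, 0)) l.length)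

theorem claim_eq (b : ℕ → Cell) (k : ℕ) :
    makerClaim pol b k = mv (20 - k) (MS b k) (BS b k) := by
  have h : ∀ j < k, ((List.range k).map b).getD j (0, 0) = b j := by
    intro j hj
    simp [List.getD, hj]
  simp only [makerClaim, pol, List.length_map, List.length_range]
  rw [MS_congr h, BS_congr h]

theorem mem_MS (b : ℕ → Cell) : ∀ (k : ℕ) (c : Cell),
    c ∈ MS b k ↔ ∃ j, j < k ∧ c = makerClaim pol b j
  | 0, c => by simp [MS]
  | k + 1, c => by
    simp only [MS, Finset.mem_insert, mem_MS b k c, ← claim_eq]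
    constructor
    · rintro (h | ⟨j, hj, h⟩)
      · exact ⟨k, by omega, h⟩
      · exact ⟨j, by omega, h⟩
    · rintro ⟨j, hj, h⟩
      rcases Nat.lt_succ_iff_lt_or_eq.1 hj with hj | rfl
      · exact Or.inr ⟨j, hj, h⟩
      · exact Or.inl h

theorem mem_BS (b : ℕ → Cell) (k : ℕ) (c : Cell) : c ∈ BS b k ↔ ∃ j, j < k ∧ b j = c := by
  simp [BS]

theorem BS_succ (b : ℕ → Cell) (k : ℕ) : BS b (k + 1) = insert (b k) (BS b k) := by
  simp [BS, Finset.range_add_one]

theorem policy_of_win (hw : Win 21 ∅ ∅) :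
    ∃ σ : List (ℤ × ℤ) → ℤ × ℤ, ∀ b : ℕ → ℤ × ℤ,
      (∀ k : ℕ, k < 20 →
        (∀ j : ℕ, j ≤ k → b k ≠ makerClaim σ b j) ∧
        (∀ j : ℕ, j < k → b k ≠ b j)) →
      (∀ k : ℕ, k ≤ 20 →
        (∀ j : ℕ, j < k → makerClaim σ b k ≠ makerClaim σ b j) ∧
        (∀ j : ℕ, j < k → makerClaim σ b k ≠ b j)) ∧
      ContainsCopy {c | ∃ j : ℕ, j ≤ 20 ∧ c = makerClaim σ b j} := by
  refine ⟨pol, fun b hb => ?_⟩
  have inv : ∀ k, k ≤ 20 → Win (20 - k + 1) (MS b k) (BS b k) := by
    intro k
    induction k with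
    | zero => intro _; simpa [MS, BS] using hw
    | succ k ih =>
      intro hk
      have h1 := mv_spec (ih (by omega))
      have e : 20 - (k + 1) + 1 = 20 - k := by omega
      rw [e, BS_succ]
      refine h1.2.2 (b k) ?_ ?_
      · change b k ∉ MS b (k + 1)
        rw [mem_MS]
        rintro ⟨j, hj, h⟩
        exact (hb k (by omega)).1 j (by omega) h
      · rw [mem_BS]
        rintro ⟨j, hj, h⟩
        exact (hb k (by omega)).2 j hj h.symm
  refine ⟨fun k hk => ⟨fun j hj h => ?_, fun j hj h => ?_⟩, ?_⟩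
  · have h1 := (mv_spec (inv k hk)).1
    rw [← claim_eq] at h1
    exact h1 ((mem_MS b k _).2 ⟨j, hj, h⟩)
  · have h1 := (mv_spec (inv k hk)).2.1
    rw [← claim_eq] at h1
    exact h1 ((mem_BS b k _).2 ⟨j, hj, h.symm⟩)
  · have h1 := (mv_spec (inv 20 le_rfl)).2.2
    obtain ⟨x, hx1, hx2⟩ := exists_free (insert (mv (20 - 20) (MS b 20) (BS b 20)) (MS b 20)) (BS b 20)
    have h2 : ContainsCopy ((MS b 21 : Finset Cell) : Set Cell) := h1 x hx1 hx2
    refine copy_mono ?_ h2
    intro c hc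
    obtain ⟨j, hj, h⟩ := (mem_MS b 21 c).1 (by exact_mod_cast hc)
    exact ⟨j, by omega, h⟩

end Crest.Agent.R35
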